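import Vale.Agent.P061.Dense

/-!
# P061: the strong thin tree conjecture for dense multigraphs

For every `δ > 0` there is a constant `C` (one may take `C = 44 / δ ^ 6`) such that every
`k`-edge-connected loopless multigraph on `n ≥ 2` vertices with all multiplicities at most `μ`
and all degrees at least `δ μ n` has a `C / k`-thin spanning tree.
-/

namespace Vale.Agent.Results.P061.DenseThinTrees

open Vale.Agent.P061

/-- The strong thin tree conjecture holds for multigraphs of linear minimum degree
(relative to the maximum multiplicity). -/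
theorem result :
    ∀ δ : ℝ, 0 < δ → ∃ C : ℝ, 0 < C ∧
      ∀ (V E : Type) [Fintype V] [Fintype E] (G : Multigraph V E) (μ k : ℕ),
        1 ≤ k → 2 ≤ Fintype.card V → (∀ x y, G.mult x y ≤ μ) →
        (∀ v, δ * μ * (Fintype.card V : ℝ) ≤ (G.degree v : ℝ)) →
        G.EdgeConnected k →
        ∃ T : Finset E, G.IsSpanningTree T ∧ G.IsThin (C / k) T := by
  intro δ hδ
  refine ⟨44 / δ ^ 6, by positivity, ?_⟩
  intro V E _ _ G μ k hk hV hμ hdeg hconn
  exact dense_thin G hδ hk hV hμ hdeg hconn

end Vale.Agent.Results.P061.DenseThinTrees
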